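import Mathlib
import Vale.Agent.P252.Defs
import Vale.Agent.P252.Smooth
import Vale.Agent.P252.Ode

/-!
P252: in every dimension `n ≥ 10` the affine Bernstein problem has a negative answer. There is a
smooth function on all of `ℝⁿ` with positive definite Hessian which solves the affine maximal
equation, has Euclidean complete graph and is not a quadratic polynomial.
-/

namespace Vale.Agent.Results.P252.NonquadraticEntire

open Vale.Agent.P252 Set
open scoped ContDiff

/-- For every `n ≥ 10` there is a nonquadratic smooth entire solution of the affine maximal equation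
with positive definite Hessian (and Euclidean complete graph); so both the statement of Q1 and its
entire-graph form fail in every dimension `n ≥ 10`. -/
theorem result (n : ℕ) (hn : 10 ≤ n) :
    (∃ u : EuclideanSpace ℝ (Fin n) → ℝ, ContDiff ℝ ∞ u ∧ (∀ x, (hess u x).PosDef) ∧
      SolvesAM univ u ∧ EuclideanComplete univ u ∧
      ¬ ∃ (A : Matrix (Fin n) (Fin n) ℝ) (b : Fin n → ℝ) (c : ℝ), IsQuadraticWith A b c u) ∧
    ¬ AffineBernstein n ∧ ¬ AffineBernsteinEntire n := by
  have key : ∃ u : EuclideanSpace ℝ (Fin n) → ℝ, ContDiff ℝ ∞ u ∧ (∀ x, (hess u x).PosDef) ∧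
      SolvesAM univ u ∧ EuclideanComplete univ u ∧
      ∀ (A : Matrix (Fin n) (Fin n) ℝ) (b : Fin n → ℝ) (c : ℝ), ¬ IsQuadraticWith A b c u := by
    obtain ⟨m, rfl⟩ : ∃ m, n = m + 1 := ⟨n - 1, by omega⟩
    obtain ⟨ε, hε, y, s, hy, -, h⟩ := ode_exists (m + 1) hn
    exact counterexample_of_ode hε (by omega) hy h
  obtain ⟨u, h1, h2, h3, h4, h5⟩ := key
  refine ⟨⟨u, h1, h2, h3, h4, ?_⟩, ?_, ?_⟩
  · rintro ⟨A, b, c, h⟩
    exact h5 A b c h
  · intro h
    obtain ⟨-, A, b, c, -, h6⟩ := h univ u univ_nonempty isOpen_univ convex_univ h1.contDiffOn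
      (fun x _ => h2 x) h3 h4
    exact h5 A b c h6
  · intro h
    obtain ⟨A, b, c, h6⟩ := h u h1 h2 h3
    exact h5 A b c h6

end Vale.Agent.Results.P252.NonquadraticEntire
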